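import Vale.Agent.P125.R73.Defs58

set_option linter.unusedSectionVars false
set_option linter.unusedVariables false

namespace Vale.Agent.P125.R73

open scoped BigOperators
open Vale.Agent.P125.Dich

theorem stEn_56 (hs : StSmall) : StEn := by
  intro S _ _ μ P hC hL n f τ s k y
  obtain ⟨hom0, homsum, hlb0, -, -, -, -, -, -, -⟩ := hs S μ P hC hL n f
  set φ : S → ℝ := fun z => ∑ k', if k ≤ k' then zt P f τ s k' z else 0 with hφ
  set g : S → ℝ := UU P f τ s k with hg
  set L : S → ℝ := LL P f s with hLdef
  set A : S → ℝ := AA P f τ s with hA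
  have hopom0 : ∀ k' z, 0 ≤ op P s (om P f k') z := by
    intro k' z
    have := hL.op_mono s (fun _ => 0) (om P f k') (fun y => hom0 k' y) z
    rwa [hL.op_const] at this
  have hzt : ∀ k' z, |zt P f τ s k' z| ≤ op P s (om P f k') z := by
    intro k' z
    unfold zt
    rw [abs_mul, abs_of_nonneg (hopom0 k' z)]
    have h1 : |((SignType.sign (hh P f τ k' z) : SignType) : ℝ)| ≤ 1 := by
      obtain h | h | h := lt_trichotomy (hh P f τ k' z) 0
      · rw [sign_neg h]; simp
      · rw [h, sign_zero]; simp
      · rw [sign_pos h]; simp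
    exact mul_le_of_le_one_left (hopom0 k' z) h1
  have hLsum : ∀ z, ∑ k', op P s (om P f k') z = L z := by
    intro z
    rw [hLdef]
    unfold LL
    rw [← hL.op_sum (Fin n) Finset.univ s (fun k' => om P f k') z]
    congr 1
    funext y
    exact homsum y
  have hφL : ∀ z, |φ z| ≤ L z := by
    intro z
    calc |φ z| ≤ ∑ k', |if k ≤ k' then zt P f τ s k' z else 0| := Finset.abs_sum_le_sum_abs _ _
      _ ≤ ∑ k', op P s (om P f k') z := by
          apply Finset.sum_le_sum
          intro k' _
          split_ifs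
          · exact hzt k' z
          · simpa using hopom0 k' z
      _ = L z := hLsum z
  have hgφ : ∀ y, g y = ∑ i ∈ Finset.range τ, op P i φ y := by
    intro y
    have h1 : ∀ i, op P i φ y = ∑ k', if k ≤ k' then op P i (zt P f τ s k') y else 0 := by
      intro i
      rw [hφ, hL.op_sum (Fin n) Finset.univ i
        (fun k' z => if k ≤ k' then zt P f τ s k' z else 0) y]
      apply Finset.sum_congr rfl
      intro k' _
      by_cases h : k ≤ k'
      · simp only [h, if_true]
      · simp only [h, if_false]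
        exact hL.op_const i 0 y
    simp only [h1, hg, UU, Mk]
    rw [Finset.sum_comm]
    apply Finset.sum_congr rfl
    intro k' _
    by_cases h : k ≤ k'
    · simp only [h, if_true]
    · simp only [h, if_false]
      simp
  have hopφ : ∀ i z, |op P i φ z| ≤ op P i L z := by
    intro i z
    exact (hL.abs_op i φ z).trans (hL.op_mono i _ _ hφL z)
  have hgA : ∀ y, |g y| ≤ A y := by
    intro y
    rw [hgφ]
    calc |∑ i ∈ Finset.range τ, op P i φ y| ≤ ∑ i ∈ Finset.range τ, |op P i φ y| :=
          Finset.abs_sum_le_sum_abs _ _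
      _ ≤ ∑ i ∈ Finset.range τ, op P i L y := Finset.sum_le_sum (fun i _ => hopφ i y)
      _ = A y := rfl
  have hPg : ∀ z, op P 1 g z - g z = op P τ φ z - φ z := by
    intro z
    have e1 : g = fun y => ∑ i ∈ Finset.range τ, op P i φ y := funext hgφ
    have e2 : op P 1 g z = ∑ i ∈ Finset.range τ, op P (i + 1) φ z := by
      rw [e1, hL.op_sum ℕ (Finset.range τ) 1 (fun i => op P i φ) z]
      apply Finset.sum_congr rfl
      intro i _
      rw [hL.op_op, add_comm]
    rw [e2, hgφ z, ← Finset.sum_sub_distrib, Finset.sum_range_sub (fun i => op P i φ z) τ,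
      hL.op_zero]
  have hPgabs : ∀ z, |op P 1 g z - g z| ≤ op P τ L z + L z := by
    intro z
    rw [hPg]
    calc |op P τ φ z - φ z| ≤ |op P τ φ z| + |φ z| := abs_sub _ _
      _ ≤ op P τ L z + L z := add_le_add (hopφ τ z) (hφL z)
  have hrow : ∀ a, ∑ b, P a b = 1 := by
    intro a
    have := hL.pw_sum 1 a
    simpa using this
  have heps : ∀ a, epsk P f τ s k a
      = (op P 1 (fun z => g z ^ 2) a - g a ^ 2) + (-2 * g a * (op P 1 g a - g a)) := by
    intro a
    unfold epsk
    rw [hL.op_one, hL.op_one]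
    have e : ∀ b, P a b * (UU P f τ s k b - UU P f τ s k a) ^ 2
        = P a b * g b ^ 2 - 2 * g a * (P a b * g b) + g a ^ 2 * P a b := by
      intro b
      simp only [hg]
      ring
    simp only [e]
    rw [Finset.sum_add_distrib, Finset.sum_sub_distrib, ← Finset.mul_sum, ← Finset.mul_sum, hrow]
    ring
  have hA0 : ∀ z, 0 ≤ A z := fun z => (abs_nonneg _).trans (hgA z)
  have hsq : ∀ z, g z ^ 2 ≤ A z ^ 2 := by
    intro z
    rw [← sq_abs (g z)]
    exact pow_le_pow_left₀ (abs_nonneg _) (hgA z) 2
  have htel : ∑ i ∈ Finset.range τ, op P (i + s) (fun a => op P 1 (fun z => g z ^ 2) a - g a ^ 2) y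
      = op P (s + τ) (fun z => g z ^ 2) y - op P s (fun z => g z ^ 2) y := by
    have e : ∀ i, op P (i + s) (fun a => op P 1 (fun z => g z ^ 2) a - g a ^ 2) y
        = op P (i + 1 + s) (fun z => g z ^ 2) y - op P (i + s) (fun z => g z ^ 2) y := by
      intro i
      rw [hL.op_sub (i + s) (op P 1 (fun z => g z ^ 2)) (fun a => g a ^ 2) y, hL.op_op]
      have : i + s + 1 = i + 1 + s := by ring
      rw [this]
    simp only [e]
    rw [Finset.sum_range_sub (fun i => op P (i + s) (fun z => g z ^ 2) y) τ, zero_add,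
      add_comm τ s]
  have hcross : ∀ a, -2 * g a * (op P 1 g a - g a) ≤ 2 * (A a * (op P τ L a + L a)) := by
    intro a
    have h1 : -2 * g a * (op P 1 g a - g a) ≤ 2 * (|g a| * |op P 1 g a - g a|) := by
      rw [← abs_mul]
      have := neg_abs_le (g a * (op P 1 g a - g a))
      linarith
    have h2 : |g a| * |op P 1 g a - g a| ≤ A a * (op P τ L a + L a) :=
      mul_le_mul (hgA a) (hPgabs a) (abs_nonneg _) (hA0 a)
    linarith
  have hpos : 0 ≤ op P s (fun z => g z ^ 2) y := by
    have := hL.op_mono s (fun _ => 0) (fun z => g z ^ 2) (fun z => sq_nonneg _) y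
    rwa [hL.op_const] at this
  have hterm : ∀ i, op P (i + s) (epsk P f τ s k) y
      ≤ op P (i + s) (fun a => op P 1 (fun z => g z ^ 2) a - g a ^ 2) y
        + 2 * op P (i + s) (fun a => A a * (op P τ L a + L a)) y := by
    intro i
    have e : epsk P f τ s k = fun a => (op P 1 (fun z => g z ^ 2) a - g a ^ 2)
        + (-2 * g a * (op P 1 g a - g a)) := funext heps
    rw [e, hL.op_add, ← hL.op_smul]
    exact add_le_add le_rfl (hL.op_mono (i + s) _ _ hcross y)
  calc ∑ i ∈ Finset.range τ, op P (i + s) (epsk P f τ s k) y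
      ≤ ∑ i ∈ Finset.range τ, (op P (i + s) (fun a => op P 1 (fun z => g z ^ 2) a - g a ^ 2) y
        + 2 * op P (i + s) (fun a => A a * (op P τ L a + L a)) y) :=
        Finset.sum_le_sum (fun i _ => hterm i)
    _ = (op P (s + τ) (fun z => g z ^ 2) y - op P s (fun z => g z ^ 2) y)
        + 2 * ∑ i ∈ Finset.range τ, op P (i + s) (fun a => A a * (op P τ L a + L a)) y := by
        rw [Finset.sum_add_distrib, htel, ← Finset.mul_sum]
    _ ≤ op P (s + τ) (fun z => A z ^ 2) y
        + 2 * ∑ i ∈ Finset.range τ, op P (i + s) (fun a => A a * (op P τ L a + L a)) y := by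
        have := hL.op_mono (s + τ) _ _ hsq y
        linarith
    _ = BB P f τ s y := rfl

end Vale.Agent.P125.R73
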