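import Vale.Agent.P125.R73.Main

set_option linter.unusedSectionVars false
set_option linter.unusedVariables false

/-!
# P125: polynomial rate with the quadratic variation (James norm) of the prefix sums on the left
-/

namespace Vale.Agent.P125.R73

open scoped BigOperators
open Vale.Agent.P125.Dich

/-! ## scalar lemmas -/

lemma psi_step (a b : ℝ) :
    abs (b * abs b - a * abs a) ≤ 4 * (abs (b - a) * abs b) + (a ^ 2 - b ^ 2) := by
  rcases abs_cases a with ⟨h1, h1'⟩ | ⟨h1, h1'⟩ <;> rcases abs_cases b with ⟨h2, h2'⟩ | ⟨h2, h2'⟩ <;>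
  rcases abs_cases (b - a) with ⟨h3, h3'⟩ | ⟨h3, h3'⟩ <;> rw [h1, h2, h3] <;>
  rw [abs_le] <;> constructor <;> nlinarith [sq_nonneg (b - a), sq_nonneg (b + a)]

lemma sq_le_psi (a b : ℝ) : (b - a) ^ 2 ≤ 2 * abs (b * abs b - a * abs a) := by
  rcases abs_cases a with ⟨h1, h1'⟩ | ⟨h1, h1'⟩ <;> rcases abs_cases b with ⟨h2, h2'⟩ | ⟨h2, h2'⟩ <;>
  rw [h1, h2] <;>
  rcases le_total a b with h3 | h3
  all_goals first
    | (have := le_abs_self (b * b - a * a); have := neg_abs_le (b * b - a * a);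
       nlinarith [sq_nonneg (b - a), sq_nonneg (b + a)])
    | (have := le_abs_self (b * -b - a * a); have := neg_abs_le (b * -b - a * a);
       nlinarith [sq_nonneg (b - a), sq_nonneg (b + a)])
    | (have := le_abs_self (b * b - a * -a); have := neg_abs_le (b * b - a * -a);
       nlinarith [sq_nonneg (b - a), sq_nonneg (b + a)])
    | (have := le_abs_self (b * -b - a * -a); have := neg_abs_le (b * -b - a * -a);
       nlinarith [sq_nonneg (b - a), sq_nonneg (b + a)])

lemma abs_sub_le_tv (H : ℕ → ℝ) (a b : ℕ) (hab : a ≤ b) :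
    |H b - H a| ≤ ∑ k ∈ Finset.Ico a b, |H (k + 1) - H k| := by
  induction b, hab using Nat.le_induction with
  | base => simp
  | succ b hb ih =>
    rw [Finset.sum_Ico_succ_top hb]
    have e : H (b + 1) - H a = (H b - H a) + (H (b + 1) - H b) := by ring
    rw [e]
    exact (abs_add_le _ _).trans (add_le_add_left ih _)

lemma tv_partition (H : ℕ → ℝ) (p : ℕ → ℕ) (hp : Monotone p) (m : ℕ) :
    ∑ r ∈ Finset.range m, |H (p (r + 1)) - H (p r)| ≤
      ∑ k ∈ Finset.Ico (p 0) (p m), |H (k + 1) - H k| := by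
  induction m with
  | zero => simp
  | succ m ih =>
    rw [Finset.sum_range_succ,
      ← Finset.sum_Ico_consecutive _ (hp (Nat.zero_le m)) (hp (Nat.le_succ m))]
    exact add_le_add ih (abs_sub_le_tv H _ _ (hp (Nat.le_succ m)))

/-- the quadratic variation along any partition is at most eight times the own-measure sum -/
lemma james_pt (H : ℕ → ℝ) (h0 : H 0 = 0) (p : ℕ → ℕ) (hp : Monotone p) (m N : ℕ)
    (hN : p m ≤ N) :
    ∑ r ∈ Finset.range m, (H (p (r + 1)) - H (p r)) ^ 2 ≤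
      8 * ∑ k ∈ Finset.range N, |H (k + 1) - H k| * |H (k + 1)| := by
  set Ψ : ℕ → ℝ := fun k => H k * |H k| with hΨ
  have s1 : ∑ r ∈ Finset.range m, (H (p (r + 1)) - H (p r)) ^ 2 ≤
      2 * ∑ r ∈ Finset.range m, |Ψ (p (r + 1)) - Ψ (p r)| := by
    rw [Finset.mul_sum]
    exact Finset.sum_le_sum fun r _ => sq_le_psi _ _
  have s2 := tv_partition Ψ p hp m
  have s3 : ∑ k ∈ Finset.Ico (p 0) (p m), |Ψ (k + 1) - Ψ k| ≤
      ∑ k ∈ Finset.range N, |Ψ (k + 1) - Ψ k| := by
    refine Finset.sum_le_sum_of_subset_of_nonneg ?_ fun _ _ _ => abs_nonneg _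
    intro k hk
    rw [Finset.mem_Ico] at hk
    rw [Finset.mem_range]
    omega
  have s4 : ∑ k ∈ Finset.range N, |Ψ (k + 1) - Ψ k| ≤
      ∑ k ∈ Finset.range N, (4 * (|H (k + 1) - H k| * |H (k + 1)|) + (H k ^ 2 - H (k + 1) ^ 2)) :=
    Finset.sum_le_sum fun k _ => psi_step _ _
  rw [Finset.sum_add_distrib, ← Finset.mul_sum,
    Finset.sum_range_sub' (fun k => H k ^ 2) N, h0] at s4
  nlinarith [sq_nonneg (H N)]

/-! ## the own-measure quantity along the chain -/

theorem own_two (h2 : StTel) (h3 : StCol) (S : Type) [Fintype S] [DecidableEq S] (μ : S → ℝ)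
    (P : Matrix S S ℝ) (hc : IsChain μ P) (L : Lib μ P) (n : ℕ) (f : S → Fin n → ℝ) (t : ℕ) :
    ∑ k, ∑ x, ∑ y, μ x * (P ^ t) x y * (|f y k - f x k| * |F f k y - F f k x|) ≤
      t * U μ P f + ∑ r ∈ Finset.range t, (Qsum μ P f (t - 1 - r) + Qsum μ P f r) := by
  have s2 : ∀ k : Fin n,
      ∑ x, ∑ y, μ x * (P ^ t) x y * (|f y k - f x k| * |F f k y - F f k x|) ≤
      ∑ r ∈ Finset.range t, (Qk μ P f (t - 1 - r) k +
        (∑ a, ∑ b, μ a * P a b * (w f a b k * ell f a b)) + Qk μ P f r k) := by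
    intro k
    refine (h2 S μ P hc L (fun x => f x k) (fun x y => |F f k y - F f k x|)
      (fun x y => abs_nonneg _) t).trans ?_
    exact Finset.sum_le_sum fun r _ => h3 S μ P hc L n f k r (t - 1 - r)
  have hUe : ∑ k, (∑ a, ∑ b, μ a * P a b * (w f a b k * ell f a b)) = U μ P f := by
    unfold U
    rw [Finset.sum_comm]
    refine Finset.sum_congr rfl fun a _ => ?_
    rw [Finset.sum_comm]
    refine Finset.sum_congr rfl fun b _ => ?_
    rw [← Finset.mul_sum, ← Finset.sum_mul]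
    have : ∑ k, w f a b k = ell f a b := rfl
    rw [this]; ring
  have s3 : ∑ k, ∑ r ∈ Finset.range t, (Qk μ P f (t - 1 - r) k +
        (∑ a, ∑ b, μ a * P a b * (w f a b k * ell f a b)) + Qk μ P f r k) =
      t * U μ P f + ∑ r ∈ Finset.range t, (Qsum μ P f (t - 1 - r) + Qsum μ P f r) := by
    rw [Finset.sum_comm]
    have : ∀ r ∈ Finset.range t, ∑ k, (Qk μ P f (t - 1 - r) k +
        (∑ a, ∑ b, μ a * P a b * (w f a b k * ell f a b)) + Qk μ P f r k) =
        U μ P f + (Qsum μ P f (t - 1 - r) + Qsum μ P f r) := by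
      intro r _
      rw [Finset.sum_add_distrib, Finset.sum_add_distrib, hUe]
      unfold Qsum
      ring
    rw [Finset.sum_congr rfl this, Finset.sum_add_distrib, Finset.sum_const, Finset.card_range,
      nsmul_eq_mul]
  have s4 := Finset.sum_le_sum (s := Finset.univ) fun k _ => s2 k
  rw [s3] at s4
  exact s4

theorem own_core (hlib : StLib) (hs : StSmall) (h2 : StTel) (h3 : StCol) (hq : StQ)
    (S : Type) [Fintype S] [DecidableEq S] (μ : S → ℝ)
    (P : Matrix S S ℝ) (hc : IsChain μ P) (n : ℕ) (f : S → Fin n → ℝ) (t : ℕ) (ht : 1 ≤ t) :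
    ∑ k, ∑ x, ∑ y, μ x * (P ^ t) x y * (|f y k - f x k| * |F f k y - F f k x|) ≤
      11 * (t : ℝ) ^ (11 / 6 : ℝ) * U μ P f := by
  have hL := hlib S μ P hc
  obtain ⟨-, -, -, -, -, -, hU, -⟩ := hs S μ P hc hL n f
  obtain ⟨τ, hτ, z, hz1, h6, h11, hqq⟩ := scal_73 t ht
  have hz0 : 0 < z := by linarith
  have hQ : ∀ t' : ℕ, t' ≤ t → Qsum μ P f t' ≤ 5 * z ^ 5 * U μ P f := by
    intro t' ht'
    exact (hq S μ P hc hL n f τ t' hτ).trans (mul_le_mul_of_nonneg_right (hqq t' ht') hU)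
  refine (own_two h2 h3 S μ P hc hL n f t).trans ?_
  have hsum : ∑ r ∈ Finset.range t, (Qsum μ P f (t - 1 - r) + Qsum μ P f r)
      ≤ ∑ r ∈ Finset.range t, (10 * z ^ 5 * U μ P f) := by
    refine Finset.sum_le_sum fun r hr => ?_
    have hr' : r < t := Finset.mem_range.mp hr
    have e1 := hQ (t - 1 - r) (by omega)
    have e2 := hQ r (by omega)
    linarith
  rw [Finset.sum_const, Finset.card_range, nsmul_eq_mul] at hsum
  rw [h11]
  rw [h6] at hsum ⊢
  have hz611 : z ^ 6 ≤ z ^ 11 := pow_le_pow_right₀ hz1 (by norm_num)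
  have : z ^ 6 * U μ P f ≤ z ^ 11 * U μ P f := mul_le_mul_of_nonneg_right hz611 hU
  have e3 : z ^ 6 * (10 * z ^ 5 * U μ P f) = 10 * z ^ 11 * U μ P f := by ring
  linarith

/-! ## prefix sums -/

/-- the sum of the first `k` coordinates -/
def pre {n : ℕ} (v : Fin n → ℝ) (k : ℕ) : ℝ := ∑ i : Fin n, if (i : ℕ) < k then v i else 0

lemma pre_succ_sub {n : ℕ} (v : Fin n → ℝ) (j : Fin n) :
    pre v ((j : ℕ) + 1) - pre v j = v j := by
  unfold pre
  rw [← Finset.sum_sub_distrib, Finset.sum_eq_single j]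
  · simp
  · intro i _ hij
    have hne : (i : ℕ) ≠ (j : ℕ) := fun h => hij (Fin.ext h)
    by_cases h : (i : ℕ) < (j : ℕ)
    · rw [if_pos (by omega), if_pos h, sub_self]
    · rw [if_neg (by omega), if_neg h, sub_self]
  · intro h
    exact absurd (Finset.mem_univ _) h

lemma pre_succ_eq {n : ℕ} (v : Fin n → ℝ) (j : Fin n) :
    pre v ((j : ℕ) + 1) = ∑ i, if i ≤ j then v i else 0 := by
  unfold pre
  refine Finset.sum_congr rfl fun i _ => ?_
  have : ((i : ℕ) < (j : ℕ) + 1) ↔ i ≤ j := by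
    rw [Fin.le_def]
    omega
  by_cases h : i ≤ j
  · rw [if_pos h, if_pos (this.mpr h)]
  · rw [if_neg h, if_neg (fun hh => h (this.mp hh))]

/-- pointwise: quadratic variation of the prefix sums against the own-measure sum -/
lemma james_fin {n : ℕ} (v : Fin n → ℝ) (p : ℕ → ℕ) (hp : Monotone p) (hn : ∀ r, p r ≤ n)
    (m : ℕ) :
    ∑ r ∈ Finset.range m, (pre v (p (r + 1)) - pre v (p r)) ^ 2 ≤
      8 * ∑ k : Fin n, |v k| * |∑ i, if i ≤ k then v i else 0| := by
  have h := james_pt (pre v) (by simp [pre]) p hp m n (hn m)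
  refine h.trans (le_of_eq ?_)
  congr 1
  rw [Finset.sum_range]
  refine Finset.sum_congr rfl fun k _ => ?_
  rw [pre_succ_sub, pre_succ_eq]

/-- **James norm form of the polynomial rate.** -/
theorem james_main : ∀ t : ℕ, 1 ≤ t →
    ∀ (n : ℕ) (S : Type) [Fintype S] [DecidableEq S] (μ : S → ℝ) (P : Matrix S S ℝ),
      (∀ i, 0 ≤ μ i) → ∑ i, μ i = 1 → (∀ i j, 0 ≤ P i j) → (∀ i, ∑ j, P i j = 1) →
      (∀ i j, μ i * P i j = μ j * P j i) → ∀ (f : S → Fin n → ℝ) (m : ℕ) (p : S → S → ℕ → ℕ),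
        (∀ i j, Monotone (p i j)) → (∀ i j r, p i j r ≤ n) →
        ∑ i, ∑ j, μ i * (P ^ t) i j *
            ∑ r ∈ Finset.range m,
              ((∑ l : Fin n, if l.val < p i j (r + 1) then f j l - f i l else 0) -
                (∑ l : Fin n, if l.val < p i j r then f j l - f i l else 0)) ^ 2 ≤
          88 * (t : ℝ) ^ (11 / 6 : ℝ) *
            ∑ i, ∑ j, μ i * P i j * (∑ l : Fin n, |f j l - f i l|) ^ 2 := by
  intro t ht n S _ _ μ P h0 h1 h2 h3 h4 f m p hp hn
  have hc : IsChain μ P := ⟨h0, h1, h2, h3, h4⟩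
  have hct : IsChain μ (P ^ t) := isChain_pow hc t
  have hSm : StSmall := stSmall_93
  have hLib : StLib := stLib_16
  have hOwn : StOwn := stOwn_33
  have hQ : StQ := stQ_64 hSm (stRem_77 hSm (stTriv1_69 hSm))
    (stBlk_89 hLib hSm (stTriv2_85 hSm) stSqrt_89)
    (stR_14 hSm stDual_67 (stDown_73 (stOwnT_27 hOwn) hSm) (stBack_88 hSm)
      (stXi_87 hSm (stEn_56 hSm) (stBB_38 hSm)))
  have key := own_core hLib hSm stTel_68 (stCol_59 hSm) hQ S μ P hc n f t ht
  have hF : ∀ (k : Fin n) (x y : S),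
      (∑ i, if i ≤ k then (f y i - f x i) else 0) = F f k y - F f k x := by
    intro k x y
    unfold F
    rw [← Finset.sum_sub_distrib]
    refine Finset.sum_congr rfl fun i _ => ?_
    split_ifs <;> simp
  have hpt : ∀ i j, ∑ r ∈ Finset.range m,
      ((∑ l : Fin n, if l.val < p i j (r + 1) then f j l - f i l else 0) -
        (∑ l : Fin n, if l.val < p i j r then f j l - f i l else 0)) ^ 2 ≤
      8 * ∑ k : Fin n, |f j k - f i k| * |F f k j - F f k i| := by
    intro i j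
    have := james_fin (fun l => f j l - f i l) (p i j) (hp i j) (hn i j) m
    simp only [hF] at this
    exact this
  calc ∑ i, ∑ j, μ i * (P ^ t) i j *
            ∑ r ∈ Finset.range m,
              ((∑ l : Fin n, if l.val < p i j (r + 1) then f j l - f i l else 0) -
                (∑ l : Fin n, if l.val < p i j r then f j l - f i l else 0)) ^ 2
      ≤ ∑ i, ∑ j, μ i * (P ^ t) i j * (8 * ∑ k : Fin n, |f j k - f i k| * |F f k j - F f k i|) :=
        Finset.sum_le_sum fun i _ => Finset.sum_le_sum fun j _ =>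
          mul_le_mul_of_nonneg_left (hpt i j) (mul_nonneg (h0 i) (hct.2.2.1 i j))
    _ = 8 * ∑ k, ∑ x, ∑ y, μ x * (P ^ t) x y * (|f y k - f x k| * |F f k y - F f k x|) := by
        rw [Finset.sum_comm (s := (Finset.univ : Finset (Fin n))), Finset.mul_sum]
        refine Finset.sum_congr rfl fun x _ => ?_
        rw [Finset.sum_comm (s := (Finset.univ : Finset (Fin n))), Finset.mul_sum]
        refine Finset.sum_congr rfl fun y _ => ?_
        rw [← Finset.mul_sum]
        ring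
    _ ≤ 8 * (11 * (t : ℝ) ^ (11 / 6 : ℝ) * U μ P f) := by linarith
    _ = _ := by
        unfold U ell w
        ring

end Vale.Agent.P125.R73
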